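import Mathlib

/-!
The separable quotient property.
-/

namespace Vale.Agent.Lib.P129

/-- `X` has a separable infinite-dimensional quotient: there is a closed subspace `M` of `X`
such that `X ⧸ M` (with the quotient topology) is separable and not finite-dimensional. -/
def HasSepQuotient (𝕜 : Type*) (X : Type*) [Field 𝕜] [AddCommGroup X] [Module 𝕜 X]
    [TopologicalSpace X] : Prop :=
  ∃ M : Submodule 𝕜 X, IsClosed (M : Set X) ∧ TopologicalSpace.SeparableSpace (X ⧸ M) ∧
    ¬ FiniteDimensional 𝕜 (X ⧸ M)

end Vale.Agent.Lib.P129
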