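import Mathlib
import Vale.Agent.Lib.P129.Defs

namespace Vale.Agent.Lib.P129

open Topology

universe u

section

variable {𝕜 : Type*} [RCLike 𝕜]

/-- An infinite-dimensional vector space has a linearly independent sequence. -/
theorem exists_linearIndependent_seq (V : Type*) [AddCommGroup V] [Module 𝕜 V]
    (hV : ¬ FiniteDimensional 𝕜 V) : ∃ f : ℕ → V, LinearIndependent 𝕜 f := by
  classical
  let b := Module.Basis.ofVectorSpace 𝕜 V
  have hinf : Infinite (Module.Basis.ofVectorSpaceIndex 𝕜 V) := by
    by_contra hfin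
    rw [not_infinite_iff_finite] at hfin
    exact hV (Module.Finite.of_basis b)
  let e := Infinite.natEmbedding (Module.Basis.ofVectorSpaceIndex 𝕜 V)
  exact ⟨fun n => b (e n), b.linearIndependent.comp e e.injective⟩

/-- The continuous dual of an infinite-dimensional normed space is infinite-dimensional. -/
theorem dual_not_finiteDimensional (X : Type*) [NormedAddCommGroup X] [NormedSpace 𝕜 X]
    (hX : ¬ FiniteDimensional 𝕜 X) : ¬ FiniteDimensional 𝕜 (X →L[𝕜] 𝕜) := by
  intro h
  apply hX
  let ev : X →ₗ[𝕜] Module.Dual 𝕜 (X →L[𝕜] 𝕜) :=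
    { toFun := fun x =>
        { toFun := fun f => f x
          map_add' := fun f g => rfl
          map_smul' := fun c f => rfl }
      map_add' := fun x y => by ext f; simp
      map_smul' := fun c x => by ext f; simp }
  have hinj : Function.Injective ev := by
    rw [← LinearMap.ker_eq_bot, LinearMap.ker_eq_bot']
    intro x hx
    apply SeparatingDual.eq_zero_of_forall_dual_eq_zero (R := 𝕜)
    intro f
    exact congrArg (fun φ : Module.Dual 𝕜 (X →L[𝕜] 𝕜) => φ f) hx
  exact FiniteDimensional.of_injective ev hinj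

/-- Pull back the separable quotient property along a quotient map. -/
theorem hasSepQuotient_of_quotient (X : Type*) [NormedAddCommGroup X] [NormedSpace 𝕜 X]
    (M : Submodule 𝕜 X) (h : HasSepQuotient 𝕜 (X ⧸ M)) : HasSepQuotient 𝕜 X := by
  obtain ⟨N, hNclosed, hNsep, hNinf⟩ := h
  refine ⟨N.comap M.mkQ, ?_, ?_, ?_⟩
  · exact hNclosed.preimage M.continuous_mkQ
  · have hle : M ≤ N.comap M.mkQ := by
      intro x hx
      simp only [Submodule.mem_comap, Submodule.mkQ_apply]
      rw [(Submodule.Quotient.mk_eq_zero M).mpr hx]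
      exact N.zero_mem
    have hmap : Submodule.map M.mkQ (N.comap M.mkQ) = N :=
      Submodule.map_comap_eq_of_surjective (Submodule.mkQ_surjective M) N
    let e1 := Submodule.quotientQuotientLIEQuotient M (N.comap M.mkQ) hle
    let e2 := Submodule.quotLIEOfEq (Submodule.map M.mkQ (N.comap M.mkQ)) N hmap
    let e := e2.symm.trans e1
    exact e.surjective.denseRange.separableSpace e.continuous
  · intro hfin
    apply hNinf
    have hle : M ≤ N.comap M.mkQ := by
      intro x hx
      simp only [Submodule.mem_comap, Submodule.mkQ_apply]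
      rw [(Submodule.Quotient.mk_eq_zero M).mpr hx]
      exact N.zero_mem
    have hmap : Submodule.map M.mkQ (N.comap M.mkQ) = N :=
      Submodule.map_comap_eq_of_surjective (Submodule.mkQ_surjective M) N
    let e1 := Submodule.quotientQuotientLIEQuotient M (N.comap M.mkQ) hle
    let e2 := Submodule.quotLIEOfEq (Submodule.map M.mkQ (N.comap M.mkQ)) N hmap
    let e := e2.symm.trans e1
    exact Module.Finite.equiv e.symm.toLinearEquiv

/-- Reduction of the separable quotient problem to Banach spaces with a countable separating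
family of continuous linear functionals. -/
theorem reduction
    (H : ∀ (Y : Type u) [NormedAddCommGroup Y] [NormedSpace 𝕜 Y] [CompleteSpace Y],
      ¬ FiniteDimensional 𝕜 Y →
      (∃ f : ℕ → (Y →L[𝕜] 𝕜), ∀ y : Y, (∀ n, f n y = 0) → y = 0) → HasSepQuotient 𝕜 Y)
    (X : Type u) [NormedAddCommGroup X] [NormedSpace 𝕜 X] [CompleteSpace X]
    (hX : ¬ FiniteDimensional 𝕜 X) : HasSepQuotient 𝕜 X := by
  obtain ⟨f, hf⟩ := exists_linearIndependent_seq (𝕜 := 𝕜) (X →L[𝕜] 𝕜)
    (dual_not_finiteDimensional X hX)
  let M : Submodule 𝕜 X := ⨅ n, LinearMap.ker (f n : X →ₗ[𝕜] 𝕜)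
  have hMclosed : IsClosed (M : Set X) := by
    have : (M : Set X) = ⋂ n, (LinearMap.ker (f n : X →ₗ[𝕜] 𝕜) : Set X) := by
      simp [M]
    rw [this]
    exact isClosed_iInter fun n => (f n).isClosed_ker
  have : IsClosed (M : Set X) := hMclosed
  have hle : ∀ n, M ≤ LinearMap.ker (f n : X →ₗ[𝕜] 𝕜) := fun n => iInf_le _ n
  let gl : ℕ → Module.Dual 𝕜 (X ⧸ M) := fun n => M.liftQ (f n : X →ₗ[𝕜] 𝕜) (hle n)
  have hgl : ∀ n x, gl n (M.mkQ x) = f n x := fun n x => rfl
  apply hasSepQuotient_of_quotient X M
  apply H (X ⧸ M)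
  · intro hfin
    have h1 : LinearIndependent 𝕜 (fun n => (f n : X →ₗ[𝕜] 𝕜)) := by
      have := hf.map' (ContinuousLinearMap.coeLM 𝕜)
        (LinearMap.ker_eq_bot.mpr ContinuousLinearMap.coe_injective)
      exact this
    have h2 : LinearIndependent 𝕜 (M.mkQ.dualMap ∘ gl) := by
      have : (M.mkQ.dualMap ∘ gl) = fun n => (f n : X →ₗ[𝕜] 𝕜) := by
        funext n
        ext x
        simp [gl]
      rw [this]
      exact h1
    have h3 : LinearIndependent 𝕜 gl := LinearIndependent.of_comp M.mkQ.dualMap h2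
    have h4 : Finite ℕ := h3.finite
    exact not_finite ℕ
  · let g : ℕ → ((X ⧸ M) →L[𝕜] 𝕜) := fun n =>
      ⟨gl n, by
        apply M.isQuotientMap_mkQ.continuous_iff.mpr
        exact (f n).continuous⟩
    refine ⟨g, ?_⟩
    intro y hy
    obtain ⟨x, rfl⟩ := Submodule.mkQ_surjective M y
    have hx : x ∈ M := by
      simp only [M, Submodule.mem_iInf, LinearMap.mem_ker]
      intro n
      exact hy n
    exact (Submodule.Quotient.mk_eq_zero M).mpr hx

end

end Vale.Agent.Lib.P129
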